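import Vale.Agent.P154.Link

namespace Vale.Agent.Results.P154.Ferro3

open Vale.Agent.P154 Filter Topology

theorem result :
    (∀ (d : ℕ) (lam : ℝ), 2 ≤ d → 0 ≤ lam → lam ≤ 1 → d * lam ^ 2 ≤ 1 →
      (∀ n, HasSum (marg 3 lam (regOff d) n) 1) ∧
        Tendsto (adv 3 lam (regOff d)) atTop (𝓝 0)) ∧
    (∀ (d lam : ℝ), 0 < d → 0 ≤ lam → lam ≤ 1 → d * lam ^ 2 ≤ 1 →
      (∀ n, HasSum (marg 3 lam (poiOff d) n) 1) ∧
        Tendsto (adv 3 lam (poiOff d)) atTop (𝓝 0)) := by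
  refine ⟨fun d lam hd h0 h1 hKS => ?_, fun d lam hd h0 h1 hKS => ?_⟩
  · refine main h0 h1 (fun k => ?_) (reg_hs d) (reg_hd d) (d - 2) ?_ hKS
    · unfold regOff; split_ifs <;> norm_num
    · have : d - 2 + 2 = d := by omega
      simp [regOff, this]
  · refine main h0 h1 (fun k => ?_) (poi_hs d) (poi_hd d) 0 ?_ hKS
    · unfold poiOff; positivity
    · unfold poiOff; positivity

end Vale.Agent.Results.P154.Ferro3
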